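import Vale.Agent.P162.FFinal

/-! # The Thorp shuffle of `2 ^ d` cards mixes in order `d` shuffles -/

namespace Vale.Agent.Results.P162.LogOrder

open Vale.Agent.P162

/-- The exact order of growth of the mixing time of the Thorp shuffle of `n = 2 ^ d` cards
(a deck of `2 * 2 ^ (d - 1)` cards): `c * d ≤ t_mix(2 ^ d) ≤ C * d` for absolute constants
`c, C > 0` and all large `d`; the distance at time `t_mix` is at most `1 / 4` (so the set of
times defining `t_mix` is not empty). -/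
theorem result : ∃ c C : ℝ, 0 < c ∧ 0 < C ∧ ∃ d₀ : ℕ, ∀ d : ℕ, d₀ ≤ d →
    tvDist (2 ^ (d - 1)) (tmix (2 ^ (d - 1))) ≤ 1 / 4 ∧
    c * (d : ℝ) ≤ (tmix (2 ^ (d - 1)) : ℝ) ∧
    (tmix (2 ^ (d - 1)) : ℝ) ≤ C * (d : ℝ) := by
  obtain ⟨C, d₀, h⟩ := tmix_linear
  refine ⟨1 / 2, C + 1, by norm_num, by positivity, d₀ + 2, fun d hd => ?_⟩
  obtain ⟨k, rfl⟩ : ∃ k, d = k + 1 := ⟨d - 1, by omega⟩
  rw [Nat.add_sub_cancel]
  obtain ⟨h1, h2, h3⟩ := h k (by omega)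
  refine ⟨h1, ?_, ?_⟩
  · have h4 : (k : ℝ) ≤ (tmix (2 ^ k) : ℝ) := by exact_mod_cast h2
    have h5 : (1 : ℝ) ≤ (k : ℝ) := by
      have : 1 ≤ k := by omega
      exact_mod_cast this
    push_cast
    linarith
  · have h4 : (tmix (2 ^ k) : ℝ) ≤ (C : ℝ) * ((k : ℝ) + 1) := by exact_mod_cast h3
    push_cast
    have h5 : (0 : ℝ) ≤ (k : ℝ) := Nat.cast_nonneg k
    nlinarith

end Vale.Agent.Results.P162.LogOrder
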