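import Vale.Agent.P162.Final

/-! # The Thorp shuffle of `2 ^ d` cards mixes in `O(d ^ 2)` shuffles -/

namespace Vale.Agent.Results.P162.QuadraticBound

open Vale.Agent.P162

/-- There is an absolute constant `C` such that, for every large `d`, the mixing time of the
Thorp shuffle of a deck of `2 * 2 ^ (d - 1) = 2 ^ d` cards is finite and at most `C * d ^ 2`. -/
theorem result : ∃ C : ℝ, ∃ d₀ : ℕ, ∀ d : ℕ, d₀ ≤ d →
    tvDist (2 ^ (d - 1)) (tmix (2 ^ (d - 1))) ≤ 1 / 4 ∧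
    (tmix (2 ^ (d - 1)) : ℝ) ≤ C * (d : ℝ) ^ 2 := by
  refine ⟨1679360, 6, fun d hd => ?_⟩
  obtain ⟨k, rfl⟩ : ∃ k, d = k + 1 := ⟨d - 1, by omega⟩
  rw [Nat.add_sub_cancel]
  have h := tmix_bound k (by omega)
  refine ⟨h.1, ?_⟩
  push_cast
  exact h.2

end Vale.Agent.Results.P162.QuadraticBound
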